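import Vale.Agent.P210.R2.H53.TwFin

open scoped Manifold ContDiff Topology
open Bundle IsManifold

set_option maxSynthPendingDepth 3

namespace Vale.Agent.Results.P210.RicciTwisted

open Vale.Agent.P210.R2.H53

/-- For every `m ≥ 3` and `Λ > 0` there are `δ > 0` and `C` such that `UW_{m-2}(M) ≤ C` for every
complete Riemannian `m`-manifold `M` with scalar curvature at least `1` which is a product `N × F`
with metric `w h + k`, `h` a metric on `N` with Ricci curvature at least `-δ`, `dim N ≥ 3`, `w` a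
function on `N` with values in `[Λ⁻¹, Λ]`, `k` an arbitrary family of metrics on the fibres. -/
theorem result : ∀ m : ℕ, 3 ≤ m → ∀ Λ : ℝ, Λ > 0 → ∃ δ > 0, ∃ C : ℝ, ∀ n k : ℕ, 3 ≤ n →
    n + k = m →
    ∀ (E : Type) [NormedAddCommGroup E] [NormedSpace ℝ E] [FiniteDimensional ℝ E]
      (V : Type) [NormedAddCommGroup V] [NormedSpace ℝ V] [FiniteDimensional ℝ V]
      (N : Type) [MetricSpace N] [ChartedSpace E N]
      [RiemannianBundle (fun x : N => TangentSpace 𝓘(ℝ, E) x)] [IsManifold 𝓘(ℝ, E) ∞ N]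
      (F : Type) [TopologicalSpace F] [ChartedSpace V F] [IsManifold 𝓘(ℝ, V) ∞ F]
      (M : Type) [MetricSpace M] [ChartedSpace (E × V) M]
      [RiemannianBundle (fun x : M => TangentSpace 𝓘(ℝ, E × V) x)]
      [IsManifold 𝓘(ℝ, E × V) ∞ M]
      (w : N → ℝ) (Ψ : N × F → M), IsProductDiffeo E V Ψ →
      IsRiem E N → IsRiem (E × V) M → CompleteSpace M →
      Module.finrank ℝ E = n → Module.finrank ℝ V = k →
      ContMDiff 𝓘(ℝ, E) 𝓘(ℝ, ℝ) ∞ w → (∀ x, Λ⁻¹ ≤ w x ∧ w x ≤ Λ) →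
      IsTwistedProduct E V w Ψ →
      (EmbedsLE F k ∨ ∃ g : F → Fin k → UnitAddCircle, Continuous g ∧ Function.Injective g) →
      RicGE E N (-δ) → ScalGE (E × V) M 1 →
      (k ≤ 1 ∨ ∃ y : F, ∀ x : N, ScalLEAt
        (pullMetric (E × V) fun v => Ψ (x, (chartAt V y).symm v)) (chartAt V y y) (1 / 2)) →
      UrysohnWidthLE M (m - 2) C := by
  intro m hm Λ hΛ
  obtain ⟨δ, hδ, C, H⟩ := finalt2 m hm Λ hΛ
  refine ⟨δ, hδ, C, ?_⟩
  intro n k hn hnk E _ _ _ V _ _ _ N _ _ _ _ F _ _ _ M _ _ _ _ w Ψ hΨ hN hM hc hE hV hw hwΛ hT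
    hemb hR hS hF
  obtain ⟨Φ, rfl⟩ := hΨ
  obtain ⟨_, _⟩ := hN
  obtain ⟨_, _⟩ := hM
  have hw0 : ∀ x, 0 < w x := fun x => lt_of_lt_of_le (inv_pos.2 hΛ) (hwΛ x).1
  exact H n k hn hnk E V N F M w Φ.symm hw hw0
    (isTwisted_of_isTwistedProduct (Φ := Φ.symm) hT) hE hV hc hwΛ hemb hR hS hF

end Vale.Agent.Results.P210.RicciTwisted
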