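import Vale.Agent.P210.R2.H465.SbDefs
import Vale.Agent.P210.R2.H465.SfZ
import Vale.Agent.P210.R2.H465.SfM

open scoped Manifold ContDiff Topology
open Bundle IsManifold

set_option maxSynthPendingDepth 3

namespace Vale.Agent.Results.P210.SurfaceBase

open Vale.Agent.P210.R2.H53 Vale.Agent.P210.R2.H465

/-- For every `m ≥ 3`, `0 ≤ θ < 1` and `C > 2 π √((m - 1) / (m (1 - θ)))` one has
`UW_{m-2}(M) ≤ C` for every complete Riemannian `m`-manifold `M` with scalar curvature at least `1`
which is a product `N × F` of a surface `N` and an `(m - 2)`-manifold `F` with metric `h + k`, `h`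
an arbitrary metric on `N`, `k` an arbitrary family of metrics on the fibres, such that, if
`m ≥ 4`, either there is a compactly supported probability measure on `F` for which the mean of the
scalar curvature of the fibre over `x` is at most `θ` for every `x`, or there are weights `p_j ≥ 0`
with sum `1` and sets `Y_j` in `F`, on each of which the volume densities of the fibres are
proportional, and for every `x` in `N` points `y_j ∈ Y_j` at which the fibre over `x` has scalar
curvatures at most `s_j` with `∑ p_j s_j ≤ θ`. The same bound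
holds for every quotient `Q` of such an `M` by an open map that does not increase distances and
takes the leaves `N × {y}` onto the fibres of a quotient map of `Q` onto a paracompact Hausdorff
space of covering dimension at most `m - 2`. -/
theorem result : ∀ m : ℕ, 3 ≤ m → ∀ θ : ℝ, 0 ≤ θ → θ < 1 →
    ∀ C : ℝ, 2 * Real.pi * √((m - 1) / (m * (1 - θ))) < C →
    ∀ (E : Type) [NormedAddCommGroup E] [NormedSpace ℝ E] [FiniteDimensional ℝ E]
      (V : Type) [NormedAddCommGroup V] [NormedSpace ℝ V] [FiniteDimensional ℝ V]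
      (N : Type) [MetricSpace N] [ChartedSpace E N]
      [RiemannianBundle (fun x : N => TangentSpace 𝓘(ℝ, E) x)] [IsManifold 𝓘(ℝ, E) ∞ N]
      (F : Type) [TopologicalSpace F] [ChartedSpace V F] [IsManifold 𝓘(ℝ, V) ∞ F]
      (M : Type) [MetricSpace M] [ChartedSpace (E × V) M]
      [RiemannianBundle (fun x : M => TangentSpace 𝓘(ℝ, E × V) x)]
      [IsManifold 𝓘(ℝ, E × V) ∞ M]
      (Ψ : N × F → M), IsProductDiffeo E V Ψ →
      IsRiem E N → IsRiem (E × V) M → CompleteSpace M →
      Module.finrank ℝ E = 2 → Module.finrank ℝ V = m - 2 →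
      IsTwistedProduct E V (fun _ => 1) Ψ → ScalGE (E × V) M 1 →
      (m = 3 ∨ MeanOrFibreScalLE θ
        (fun (x : N) (y : F) => pullMetric (E × V) fun v => Ψ (x, (chartAt V y).symm v))
        fun y => chartAt V y y) →
      UrysohnWidthLE M (m - 2) C ∧ QuotientWidthLE Ψ (m - 2) C := by
  intro m hm θ hθ hθ1 C hC E _ _ _ V _ _ _ N _ _ _ _ F _ _ _ M _ _ _ _ Ψ hΨ hN hM hc hE hV hT
    hS hF
  obtain ⟨Φ, rfl⟩ := hΨ
  obtain ⟨_, _⟩ := hN
  obtain ⟨_, _⟩ := hM
  obtain ⟨k, rfl⟩ : ∃ k, m = k + 2 := ⟨m - 2, by omega⟩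
  have hk : k + 2 - 2 = k := by omega
  rw [hk] at hV ⊢
  have e1 : (((k + 2 : ℕ) : ℝ) - 1) / (((k + 2 : ℕ) : ℝ) * (1 - θ)) =
      ((k : ℝ) + 1) / (((k : ℝ) + 2) * (1 - θ)) := by
    push_cast
    congr 1
    ring
  rw [e1] at hC
  refine surface_base4 hθ hθ1 (by omega) hC E V N F M (fun _ => 1) Φ.symm
    contMDiff_const (fun _ => one_pos)
    (isTwisted_of_isTwistedProduct (Φ := Φ.symm) hT) (fun _ => rfl)
    hE hV hc hS (hF.imp (fun h => by omega) fun h K hK ε hε => ?_)
  rcases h with ⟨μ, L, S, hμ, hL, hL0, hSc, hSk, hm⟩ | ⟨r, p, Y, hp, hp1, hY, hs⟩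
  · let _ : MeasurableSpace F := borel F
    have _ : BorelSpace F := ⟨rfl⟩
    obtain ⟨r, p, y, hp, hp1, hy⟩ := mean_finite hL hL0 hSc hm hK hε
    refine ⟨r, p, fun j => {y j}, hp, hp1, fun j => ?_, fun x hx => ⟨y, fun j => S (x, y j),
      fun j => ⟨rfl, hSk x (y j)⟩, hy x hx⟩⟩
    rintro _ rfl _ rfl x x'
    exact mul_comm _ _
  · refine ⟨r, p, Y, hp, hp1, hY, fun x _ => ?_⟩
    obtain ⟨y, s, h1, h2⟩ := hs x
    exact ⟨y, s, h1, by linarith⟩

end Vale.Agent.Results.P210.SurfaceBase
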